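import Vale.Agent.helper7.Rem.Sym
import Vale.Agent.helper7.Rem.Numeric

namespace Vale.Agent.Results.P037.TwoByTwo

open Finset

/-- An ordered copy of the `k` by `k` matrix `H` in `A`: increasing row indices `r` and
increasing column indices `c` with `A (r i) (c j) = H i j` for all `i, j`. -/
def IsCopy {k n : ℕ} (H : Fin k → Fin k → Bool) (A : Fin n → Fin n → Bool)
    (r c : Fin k → Fin n) : Prop :=
  StrictMono r ∧ StrictMono c ∧ ∀ i j, A (r i) (c j) = H i j

open Classical in
/-- The number `N_H(A)` of ordered copies of `H` in `A`. -/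
noncomputable def copyCount {k n : ℕ} (H : Fin k → Fin k → Bool) (A : Fin n → Fin n → Bool) : ℕ :=
  (univ.filter fun p : (Fin k → Fin n) × (Fin k → Fin n) => IsCopy H A p.1 p.2).card

/-- The number of entries in which `A` and `B` differ. -/
def entryDist {n : ℕ} (A B : Fin n → Fin n → Bool) : ℕ :=
  (univ.filter fun q : Fin n × Fin n => A q.1 q.2 ≠ B q.1 q.2).card

open Vale.Agent.helper7.Rem in
lemma copyCount_eq_total {n : ℕ} (H : Fin 2 → Fin 2 → Bool) (A : Fin n → Fin n → Bool) :
    copyCount H A = total A ⟨H 0 0, H 0 1, H 1 0, H 1 1⟩ := by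
  classical
  unfold copyCount total totalSet
  apply card_nbij' (fun p => ((p.1 0, p.1 1), (p.2 0, p.2 1)))
    (fun q => (![q.1.1, q.1.2], ![q.2.1, q.2.2]))
  · intro p hp
    obtain ⟨h1, h2, h3⟩ := (mem_filter.mp hp).2
    apply mem_filter.mpr
    refine ⟨mem_univ _, h1 (by decide), h2 (by decide), ⟨h3 0 0, h3 1 0⟩, ⟨h3 0 1, h3 1 1⟩⟩
  · intro q hq
    obtain ⟨h1, h2, ⟨h3, h4⟩, ⟨h5, h6⟩⟩ := (mem_filter.mp hq).2
    apply mem_filter.mpr
    refine ⟨mem_univ _, ?_, ?_, ?_⟩
    · intro i j hij
      fin_cases i <;> fin_cases j <;> first | exact absurd hij (by decide) | exact h1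
    · intro i j hij
      fin_cases i <;> fin_cases j <;> first | exact absurd hij (by decide) | exact h2
    · intro i j
      fin_cases i <;> fin_cases j
      · exact h3
      · exact h5
      · exact h4
      · exact h6
  · intro p _
    apply Prod.ext <;> funext i <;> fin_cases i <;> rfl
  · intro q _
    rfl

/-- The polynomial removal bound for every two by two pattern, with explicit constants:
if every `H`-free matrix differs from `A` in at least `ε n²` entries, then `A` has at least
`(ε / 32) ^ 28 * n ^ 4` ordered copies of `H`. -/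
theorem result (H : Fin 2 → Fin 2 → Bool) (n : ℕ) (hn : 1 ≤ n) (A : Fin n → Fin n → Bool)
    (ε : ℝ) (h0 : 0 < ε) (h1 : ε < 1)
    (hd : ∀ B : Fin n → Fin n → Bool, copyCount H B = 0 → ε * (n : ℝ) ^ 2 ≤ (entryDist A B : ℝ)) :
    (ε / 32) ^ 28 * (n : ℝ) ^ (2 * 2) ≤ (copyCount H A : ℝ) := by
  by_contra hcon
  push Not at hcon
  have hnpos : (0 : ℝ) < n := by exact_mod_cast hn
  by_cases hN : copyCount H A = 0
  · have h2 := hd A hN
    have h3 : entryDist A A = 0 := by
      unfold entryDist
      rw [card_eq_zero, filter_eq_empty_iff]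
      intro q _ h
      exact h rfl
    rw [h3] at h2
    have h4 : 0 < ε * (n : ℝ) ^ 2 := by positivity
    simp only [Nat.cast_zero] at h2
    linarith
  · have hN1 : 1 ≤ copyCount H A := Nat.one_le_iff_ne_zero.mpr hN
    obtain ⟨K, u, hK, hu, h5, h6, h7, h8⟩ :=
      Vale.Agent.helper7.Rem.choose_params n (copyCount H A) hN1 ε h0 h1 hcon
    rw [copyCount_eq_total] at h7
    obtain ⟨B, hB, hdB⟩ := Vale.Agent.helper7.Rem.rem_all _ n K u A hK hu h5 h6 h7
    have h9 : copyCount H B = 0 := by
      rw [copyCount_eq_total]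
      exact hB
    have h10 := hd B h9
    have h11 : (entryDist A B : ℝ) * K ≤ 30 * n * n := by
      have : entryDist A B * K ≤ 30 * n * n := hdB
      exact_mod_cast this
    have hKpos : (0 : ℝ) < K := by exact_mod_cast hK
    have h12 : ε * (n : ℝ) ^ 2 * K ≤ 30 * n * n :=
      (mul_le_mul_of_nonneg_right h10 hKpos.le).trans h11
    have h13 : (31 : ℝ) * ((n : ℝ) * n) ≤ (ε * K) * ((n : ℝ) * n) :=
      mul_le_mul_of_nonneg_right h8 (by positivity)
    have h14 : (0 : ℝ) < (n : ℝ) * n := by positivity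
    nlinarith

end Vale.Agent.Results.P037.TwoByTwo
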